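import Vale.Agent.P154.D6.K1.Data
import Vale.Agent.P154.Check2

namespace Vale.Agent.P154.D6.K1

open Cert

/-- Chart (0, 0). -/
def P00 : Pb := chartPb false false Nd w G []

/-- Chart (0, 1). -/
def P01 : Pb := chartPb false true Nd w G []

/-- Chart (1, 0). -/
def P10 : Pb := chartPb true false Nd w G []

/-- Chart (1, 1). -/
def P11 : Pb := chartPb true true Nd w G []

/-- The offset. -/
def KK : ℕ := 125280926705350798278722342336933328505110146546566756454800174225243541086396330643019497345347526230662849550076946527323052049111114036531883247391151361405060040645592313964768835987488674610405484159266463584436465209497259414710370574656102446786354876354303516409087595732000055292135517611151210982323294685529773144606060786502486112556023808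

end Vale.Agent.P154.D6.K1
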