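import Vale.Agent.P154.D6.K1.Charts

set_option maxRecDepth 100000

namespace Vale.Agent.P154.D6.K1

open Cert InT OutT

/-- Certificate tree. -/
def tr00_r10110 : OutT :=
(A (B (A (B (A (O (c (c l (c l l)) (c (c l (c l l)) (d (c k k) (c (c l l) (d (c k k) (c l l))))))) (O (c (c l (c l l)) (c (c l (d l l)) (d (c k k) (c (d l l) (d (c k k) (d (d (c l k) l) l)))))))) (A (O (c (c (c l l) (c l l)) (c (c l l) (d (c k k) (c l (d (c k k) l)))))) (O (c (c (c l l) (c l l)) (c (c l (c l l)) (d (c k k) (c (c l l) (d (c k k) (d (c l l) l))))))))) (B (A (O (c (c l (c l (c l l))) (c (c (c l l) (d l l)) (d (c k k) (c (d (d (d (c k k) l) l) l) (d (c k k) (d (c l (d k (c k k))) (c l l)))))))) (B s (O (c (c l (c l (c l l))) (c (c (c l l) (d l l)) (d (c k k) (c (d (d (c k k) l) l) (d (c k k) (d (c l (d k (c k k))) (c l l)))))))))) (A (O (c (c l (c l l)) (c (c l (d l l)) (d (c k k) (c (d l l) (d (c k k) (d (c l (d k l)) l))))))) (O (c (c l (c l l)) (c (c (c l l)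 (d l l)) (d (c k k) (c (d (d (d (c k k) l) l) l) (d (c k k) (c (d (c l k) l) (d (c k k) (d (d (d (c k k) l) l) l)))))))))))) (A (B (A (O (c (c (c l l) (c l l)) (c (c l l) (d (c k k) (c l (d (d k l) l)))))) (O (c (c (c l l) (c l l)) (c (c l l) (d (c k k) (c l (d (c k k) (c l l)))))))) (A (O (c (c (c l l) (c l l)) (c (c l l) (d (c k k) (c l (d (d k l) l)))))) (O (c (c (c l l) (c l l)) (c (c l l) (d (c k k) (c l (d (d k l) l)))))))) (B (A (O (c (c (c l l) (c l l)) (c (c l (c l l)) (d (c k k) (c (c l l) (d (c k k) (d (d (c l k) l) l))))))) (O (c (c (c l l) (c l l)) (c (c l (c l l)) (d (c k k) (c (d l l) (d (c k k) (d (c l (c k k)) (d l l))))))))) (A (O (c (c (c l l) (c l l)) (c (c l l) (d (c k k) (c l (d (c k k) (d l l))))))) (O (c (c (c l l) (c l l)) (c (c l l) (d (c k k) (c l (d (c k k) (d (d (c l k) l) l))))))))))) (B (A (B s (A (B s (O (c (c l (c l l)) (c (c (c l l) (d l l)) (d (c k k) (c (d (d (d (c k k) l) l) l) (d (c k k) (d (c (c l k) (c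 k k)) (d (c l (d (d (c k k) l) l)) l))))))))) s)) s) (A (B (A (B (O (c (c l (c l l)) (c (c l (d l l)) (d (c k k) (c (d l l) (d (c k k) (d (c l (c k k)) (d (c l l) l)))))))) (O (c (c l (c l l)) (c (c l (c l l)) (d (c k k) (c (d l l) (d (c k k) (d (c l (c k k)) l)))))))) (B (A s s) (O (c (c l (c l l)) (c (c l (d l l)) (d (c k k) (c (d (d l l) l) (d (c k k) (c (d l l) (d (c k k) (d (c l (c k k)) l))))))))))) (A (B (O (c (c l (c l l)) (c (c l l) (d (c k k) (c l (d (c k k) (d (d (c l k) l) l))))))) (O (c (c (c l l) (c l l)) (c (c l l) (d (c k k) (c l (d (c k k) (d (d (c l k) l) l)))))))) (B (O (c (c l (c l l)) (c (c l (c l l)) (d (c k k) (c (d l l) (d (c k k) (c l (d (c k k) (d (d (d (c k k) l) l) l))))))))) (O (c (c l (c l l)) (c (c l l) (d (c k k) (c l (d (c k k) (d (c l (c k k)) (d l l))))))))))) (B (A s s) (A (B (A (O (c (c l (c l l)) (c (c l (c l l)) (d (c k k) (c l (d (c k k) (d (d (c l k) l) l))))))) s) (A (O (c (c l (c l l)) (c (c l l) (d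 (c k k) (c l (d (c k k) (d l l))))))) (O (c (c l (c l l)) (c (c l l) (d (c k k) (c l (d (c k k) (d (d (c l k) l) l))))))))) (B s (A s s)))))))

theorem s00_r10110 : Sound P00 40960 4096 32768 8192 :=
  chkOut2_sound P00 KK tr00_r10110 40960 4096 32768 8192 (by decide +kernel)

end Vale.Agent.P154.D6.K1
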